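import Vale.Agent.KTV.Main

open Finset

namespace Vale.Agent.Results.P335.KTVTheorem

open Vale.Agent.KTV

/-- The Kannan–Tetali–Vempala conjecture for simple undirected graphs: there is a polynomial
(namely `x ^ 6`) bounding the mixing time of the switch chain for every graphical degree
sequence on `n ≥ 4` vertices. -/
theorem result :
    ∃ p : Polynomial ℕ, p = Polynomial.X ^ 6 ∧
      ∀ n : ℕ, 4 ≤ n → ∀ d : Fin n → ℕ, Graphical n d →
        (∃ t, MixedAt n d t) ∧ (∀ t, p.eval n ≤ t → MixedAt n d t) ∧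
          mixingTime n d ≤ p.eval n := by
  refine ⟨Polynomial.X ^ 6, rfl, fun n hn d hd => ?_⟩
  have he : (Polynomial.X ^ 6 : Polynomial ℕ).eval n = n ^ 6 := by simp
  rw [he]
  have h : ∀ t, n ^ 6 ≤ t → MixedAt n d t :=
    fun t ht => mixing_bound n hn d hd (fun f hf => main_poincare f hf) t ht
  exact ⟨⟨n ^ 6, h _ le_rfl⟩, h, Nat.sInf_le (h _ le_rfl)⟩

end Vale.Agent.Results.P335.KTVTheorem
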